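import Vale.Agent.P140.Decomp

namespace Vale.Agent.Results.P140.MaxwellianData

open MeasureTheory Real Vale.Agent.P140

theorem density_nonneg (g M : ℝ) (hg : 0 ≤ g) (hM : 0 < M) : 0 ≤ g * log (g / M) - g + M := by
  rcases hg.eq_or_lt with h | h
  · subst h; simp [hM.le]
  · have h1 : log (M / g) ≤ M / g - 1 := log_le_sub_one_of_pos (by positivity)
    have h2 : log (g / M) = -log (M / g) := by rw [← log_inv, inv_div]
    rw [h2]
    have h3 : g * (M / g - 1) = M - g := by field_simp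
    nlinarith

theorem density_eq_zero (g M : ℝ) (hg : 0 ≤ g) (hM : 0 < M) (h : g * log (g / M) - g + M = 0) :
    g = M := by
  rcases hg.eq_or_lt with h0 | h0
  · subst h0; simp at h; linarith
  · by_contra hne
    have hr : M / g ≠ 1 := by
      intro h1; rw [div_eq_one_iff_eq h0.ne'] at h1; exact hne h1.symm
    have h1 : log (M / g) < M / g - 1 := log_lt_sub_one_of_pos (by positivity) hr
    have h2 : log (g / M) = -log (M / g) := by rw [← log_inv, inv_div]
    rw [h2] at h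
    have h3 : g * (M / g - 1) = M - g := by field_simp
    nlinarith

theorem rigidity (ρ θ : ℝ) (u : V3) (hρ : 0 < ρ) (hθ : 0 < θ)
    (F : ℝ → Phase → ℝ) (hF : GlobalBounds (maxwellian ρ u θ) F) (t : ℝ) (ht : 0 ≤ t)
    (hθ1 : θ ≤ 1 ∨ ∫ z : Phase, ‖z.2‖ ^ 2 * F t z = ∫ z : Phase, ‖z.2‖ ^ 2 * maxwellian ρ u θ z) :
    F t =ᵐ[volume] maxwellian ρ u θ := by
  set Mx := maxwellian ρ u θ with hMx
  have hm := hF.meas t ht
  have h0 := hF.nonneg t ht
  have hI := hF.moments t ht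
  have hm' : AEStronglyMeasurable Mx volume := (measurable_maxwellian ρ u θ).aestronglyMeasurable
  have h0' : ∀ᵐ z, 0 ≤ Mx z :=
    Filter.Eventually.of_forall fun z => (maxwellian_pos ρ u θ hρ hθ z).le
  have hI' := maxwellian_moments ρ u θ hρ hθ
  obtain ⟨iF, eF⟩ := integral_formula ρ u θ hρ hθ hm h0 hI
  obtain ⟨_, eM⟩ := integral_formula ρ u θ hρ hθ hm' h0' hI'
  obtain ⟨_, sF⟩ := integral_formula 1 0 1 one_pos one_pos hm h0 hI
  obtain ⟨_, sM⟩ := integral_formula 1 0 1 one_pos one_pos hm' h0' hI'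
  rw [← stdM_eq] at sF sM
  have rF : relEntropy (F t) = _ := sF
  have rM : relEntropy Mx = _ := sM
  have hzero : ∫ z, (Mx z * log (Mx z / maxwellian ρ u θ z) - Mx z + maxwellian ρ u θ z) = 0 := by
    have : ∀ z, Mx z * log (Mx z / maxwellian ρ u θ z) - Mx z + maxwellian ρ u θ z = 0 := by
      intro z
      rw [← hMx, div_self (maxwellian_pos ρ u θ hρ hθ z).ne']; simp
    simp [this]
  rw [hzero] at eM
  have hmass := hF.mass t ht
  have hmom := hF.momentum t ht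
  have hen := hF.energy t ht
  have hent := hF.entropy t ht
  rw [rF, rM, hmass, hmom] at hent
  rw [hmass, hmom] at eF
  have hle : ∫ z, (F t z * log (F t z / maxwellian ρ u θ z) - F t z + maxwellian ρ u θ z) ≤ 0 := by
    rw [eF]
    have h5 : (1 / (2 * θ) - 1 / (2 * 1)) * (∫ z : Phase, ‖z.2‖ ^ 2 * F t z)
        ≤ (1 / (2 * θ) - 1 / (2 * 1)) * (∫ z : Phase, ‖z.2‖ ^ 2 * Mx z) := by
      rcases hθ1 with hθ1 | hθ1
      · have hκ : 0 ≤ 1 / (2 * θ) - 1 / (2 * 1) := by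
          have : 1 / (2 * 1 : ℝ) ≤ 1 / (2 * θ) := by
            apply one_div_le_one_div_of_le (by positivity); linarith
          linarith
        exact mul_le_mul_of_nonneg_left hen hκ
      · rw [hθ1]
    linarith
  have hnn : 0 ≤ᵐ[volume]
      (fun z => F t z * log (F t z / maxwellian ρ u θ z) - F t z + maxwellian ρ u θ z) := by
    filter_upwards [h0] with z hz
    exact density_nonneg _ _ hz (maxwellian_pos ρ u θ hρ hθ z)
  have hint0 : ∫ z, (F t z * log (F t z / maxwellian ρ u θ z) - F t z + maxwellian ρ u θ z) = 0 :=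
    le_antisymm hle (integral_nonneg_of_ae hnn)
  have hae := (integral_eq_zero_iff_of_nonneg_ae hnn iF).1 hint0
  filter_upwards [hae, h0] with z hz hz0
  exact density_eq_zero _ _ hz0 (maxwellian_pos ρ u θ hρ hθ z) hz

theorem result : ∀ (ρ θ : ℝ) (u : V3), 0 < ρ → 0 < θ →
    (∀ F : ℝ → Phase → ℝ, GlobalBounds (maxwellian ρ u θ) F → ∀ t : ℝ, 0 ≤ t →
      (θ ≤ 1 ∨ ∫ z : Phase, ‖z.2‖ ^ 2 * F t z = ∫ z : Phase, ‖z.2‖ ^ 2 * maxwellian ρ u θ z) →
      F t =ᵐ[volume] maxwellian ρ u θ) ∧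
    (θ ≤ 1 → ∀ F F' : ℝ → Phase → ℝ,
      GlobalBounds (maxwellian ρ u θ) F → GlobalBounds (maxwellian ρ u θ) F' →
      ∀ t : ℝ, 0 ≤ t → F t =ᵐ[volume] F' t) := by
  intro ρ θ u hρ hθ
  refine ⟨fun F hF t ht h => rigidity ρ θ u hρ hθ F hF t ht h, ?_⟩
  intro hθ1 F F' hF hF' t ht
  have h1 := rigidity ρ θ u hρ hθ F hF t ht (Or.inl hθ1)
  have h2 := rigidity ρ θ u hρ hθ F' hF' t ht (Or.inl hθ1)
  exact h1.trans h2.symm

end Vale.Agent.Results.P140.MaxwellianData
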